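import Mathlib
import Vale.Agent.Lib.P131.Nil

namespace Vale.Agent.Results.P131.CommutatorEigen

open Vale.Agent.Lib.P131.Nil

theorem result {H : Type*} [NormedAddCommGroup H] [InnerProductSpace ℂ H] [CompleteSpace H]
    (T A : H →L[ℂ] H) (l : ℂ) (hA : A ≠ 0) (hl : l ≠ 0) (hTA : T * A - A * T = l • A) :
    ∃ M : Submodule ℂ H, IsClosed (M : Set H) ∧ M ≠ ⊥ ∧ M ≠ ⊤ ∧
      ∀ S : H →L[ℂ] H, S * T = T * S → ∀ x ∈ M, S x ∈ M := by
  have hder : ∀ j : ℕ, ∀ Y ∈ Prods T A j, T * Y - Y * T = ((j : ℂ) * l) • Y := by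
    intro j
    induction j with
    | zero =>
      intro Y hY
      have hY1 : Y = 1 := hY
      rw [hY1]; simp
    | succ j ih =>
      intro Z hZ
      obtain ⟨S, Y, hS, hY, rfl⟩ := hZ
      have h1 := ih Y hY
      calc T * (A * S * Y) - A * S * Y * T
          = (T * A - A * T) * S * Y + A * (T * S - S * T) * Y + A * S * (T * Y - Y * T) := by
            noncomm_ring
        _ = (l • A) * S * Y + A * 0 * Y + A * S * (((j : ℂ) * l) • Y) := by
            rw [hTA, h1, hS, sub_self]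
        _ = (((j + 1 : ℕ) : ℂ) * l) • (A * S * Y) := by
            simp only [smul_mul_assoc, mul_smul_comm, mul_zero, zero_mul, add_zero]
            rw [← add_smul]
            congr 1
            push_cast
            ring
  obtain ⟨k, hk⟩ := exists_nat_gt (2 * ‖T‖ / ‖l‖)
  have hlpos : 0 < ‖l‖ := norm_pos_iff.mpr hl
  refine abstract_nil T A hA k (fun Y hY => ?_)
  by_contra hY0
  have hYpos : 0 < ‖Y‖ := norm_pos_iff.mpr hY0
  have h1 := hder k Y hY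
  have h2 : ‖((k : ℂ) * l) • Y‖ = (k : ℝ) * ‖l‖ * ‖Y‖ := by
    rw [norm_smul, norm_mul]
    simp
  have h3 : ‖T * Y - Y * T‖ ≤ 2 * ‖T‖ * ‖Y‖ := by
    calc ‖T * Y - Y * T‖ ≤ ‖T * Y‖ + ‖Y * T‖ := norm_sub_le _ _
      _ ≤ ‖T‖ * ‖Y‖ + ‖Y‖ * ‖T‖ := add_le_add (norm_mul_le _ _) (norm_mul_le _ _)
      _ = 2 * ‖T‖ * ‖Y‖ := by ring
  rw [h1, h2] at h3
  have h4 : (k : ℝ) * ‖l‖ ≤ 2 * ‖T‖ := le_of_mul_le_mul_right h3 hYpos
  rw [div_lt_iff₀ hlpos] at hk
  linarith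

end Vale.Agent.Results.P131.CommutatorEigen
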