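import Mathlib
import Vale.Agent.Lib.P131.Nil

namespace Vale.Agent.Results.P131.ConjugationDecay

open Vale.Agent.Lib.P131.Nil

theorem result {H : Type*} [NormedAddCommGroup H] [InnerProductSpace ℂ H] [CompleteSpace H]
    (T A : H →L[ℂ] H) (hA : A ≠ 0) (k : ℕ) (G G' : ℕ → H →L[ℂ] H)
    (hGG' : ∀ n, G n * G' n = 1) (hG'G : ∀ n, G' n * G n = 1)
    (hcomm : ∀ n, ∀ S : H →L[ℂ] H, S * T = T * S → S * G n = G n * S)
    (hinf : ∀ ε > 0, ∃ n, ‖G n * A * G' n‖ ^ k * ‖G n‖ * ‖G' n‖ < ε) :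
    ∃ M : Submodule ℂ H, IsClosed (M : Set H) ∧ M ≠ ⊥ ∧ M ≠ ⊤ ∧
      ∀ S : H →L[ℂ] H, S * T = T * S → ∀ x ∈ M, S x ∈ M := by
  have hbound : ∀ j, ∀ Y ∈ Prods T A j, ∃ c : ℝ, 0 ≤ c ∧
      ∀ n, ‖G n * Y * G' n‖ ≤ c * ‖G n * A * G' n‖ ^ j := by
    intro j
    induction j with
    | zero =>
      intro Y hY
      have hY1 : Y = 1 := hY
      refine ⟨1, zero_le_one, fun n => ?_⟩
      rw [hY1, mul_one, hGG', pow_zero, mul_one]
      exact ContinuousLinearMap.norm_id_le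
    | succ j ih =>
      intro Z hZ
      obtain ⟨S, Y, hS, hY, rfl⟩ := hZ
      obtain ⟨c, hc0, hc⟩ := ih Y hY
      refine ⟨‖S‖ * c, by positivity, fun n => ?_⟩
      have e1 : G n * (A * S * Y) * G' n = (G n * A * G' n) * S * (G n * Y * G' n) := by
        have h1 : S * G n = G n * S := hcomm n S hS
        calc G n * (A * S * Y) * G' n = G n * A * (1 * S) * Y * G' n := by
              rw [one_mul]; simp only [mul_assoc]
          _ = G n * A * (G' n * G n * S) * Y * G' n := by rw [hG'G]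
          _ = G n * A * (G' n * (S * G n)) * Y * G' n := by rw [mul_assoc (G' n), h1]
          _ = (G n * A * G' n) * S * (G n * Y * G' n) := by simp only [mul_assoc]
      rw [e1]
      calc ‖(G n * A * G' n) * S * (G n * Y * G' n)‖
          ≤ ‖G n * A * G' n‖ * ‖S‖ * ‖G n * Y * G' n‖ := by
            refine le_trans (norm_mul_le _ _) ?_
            exact mul_le_mul_of_nonneg_right (norm_mul_le _ _) (norm_nonneg _)
        _ ≤ ‖G n * A * G' n‖ * ‖S‖ * (c * ‖G n * A * G' n‖ ^ j) :=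
            mul_le_mul_of_nonneg_left (hc n) (by positivity)
        _ = ‖S‖ * c * ‖G n * A * G' n‖ ^ (j + 1) := by ring
  refine abstract_nil T A hA k (fun Y hY => ?_)
  obtain ⟨c, hc0, hc⟩ := hbound k Y hY
  by_contra hY0
  have hYpos : 0 < ‖Y‖ := norm_pos_iff.mpr hY0
  obtain ⟨n, hn⟩ := hinf (‖Y‖ / (c + 1)) (by positivity)
  have e2 : Y = G' n * (G n * Y * G' n) * G n := by
    calc Y = 1 * Y * 1 := by rw [one_mul, mul_one]
      _ = (G' n * G n) * Y * (G' n * G n) := by rw [hG'G]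
      _ = G' n * (G n * Y * G' n) * G n := by simp only [mul_assoc]
  have e3 : ‖Y‖ ≤ ‖G' n‖ * (c * ‖G n * A * G' n‖ ^ k) * ‖G n‖ := by
    calc ‖Y‖ = ‖G' n * (G n * Y * G' n) * G n‖ := by rw [← e2]
      _ ≤ ‖G' n‖ * ‖G n * Y * G' n‖ * ‖G n‖ := by
          refine le_trans (norm_mul_le _ _) ?_
          exact mul_le_mul_of_nonneg_right (norm_mul_le _ _) (norm_nonneg _)
      _ ≤ ‖G' n‖ * (c * ‖G n * A * G' n‖ ^ k) * ‖G n‖ := by
          apply mul_le_mul_of_nonneg_right _ (norm_nonneg _)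
          exact mul_le_mul_of_nonneg_left (hc n) (norm_nonneg _)
  have e4 : ‖G' n‖ * (c * ‖G n * A * G' n‖ ^ k) * ‖G n‖
      = c * (‖G n * A * G' n‖ ^ k * ‖G n‖ * ‖G' n‖) := by ring
  rw [e4] at e3
  have e5 : c * (‖G n * A * G' n‖ ^ k * ‖G n‖ * ‖G' n‖) ≤ c * (‖Y‖ / (c + 1)) :=
    mul_le_mul_of_nonneg_left hn.le hc0
  have e6 : c * (‖Y‖ / (c + 1)) < ‖Y‖ := by
    rw [mul_div_assoc', div_lt_iff₀ (by positivity)]
    nlinarith
  linarith

end Vale.Agent.Results.P131.ConjugationDecay
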