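import Mathlib
import Vale.Agent.Results.P131.CommutatorEigen
import Vale.Agent.Results.P131.ConjugationDecay

namespace Vale.Agent.Results.P131.AllResults

/-- Two sufficient conditions for a nontrivial hyperinvariant subspace, stated together.
(1) The inner derivation `X ↦ T X - X T` has a nonzero eigenvalue.
(2) Some nonzero `A` is contracted fast enough by conjugation with invertible operators of the
bicommutant of `T`. -/
theorem result {H : Type*} [NormedAddCommGroup H] [InnerProductSpace ℂ H] [CompleteSpace H]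
    (T : H →L[ℂ] H) :
    ((∃ (A : H →L[ℂ] H) (l : ℂ), A ≠ 0 ∧ l ≠ 0 ∧ T * A - A * T = l • A) →
      ∃ M : Submodule ℂ H, IsClosed (M : Set H) ∧ M ≠ ⊥ ∧ M ≠ ⊤ ∧
        ∀ S : H →L[ℂ] H, S * T = T * S → ∀ x ∈ M, S x ∈ M) ∧
    ((∃ (A : H →L[ℂ] H) (k : ℕ) (G G' : ℕ → H →L[ℂ] H), A ≠ 0 ∧
        (∀ n, G n * G' n = 1) ∧ (∀ n, G' n * G n = 1) ∧
        (∀ n, ∀ S : H →L[ℂ] H, S * T = T * S → S * G n = G n * S) ∧
        (∀ ε > 0, ∃ n, ‖G n * A * G' n‖ ^ k * ‖G n‖ * ‖G' n‖ < ε)) →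
      ∃ M : Submodule ℂ H, IsClosed (M : Set H) ∧ M ≠ ⊥ ∧ M ≠ ⊤ ∧
        ∀ S : H →L[ℂ] H, S * T = T * S → ∀ x ∈ M, S x ∈ M) :=
  ⟨fun ⟨A, l, hA, hl, hTA⟩ => CommutatorEigen.result T A l hA hl hTA,
   fun ⟨A, k, G, G', hA, h1, h2, h3, h4⟩ => ConjugationDecay.result T A hA k G G' h1 h2 h3 h4⟩

end Vale.Agent.Results.P131.AllResults
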